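import Crest.Agent.Helper68.S0076.Defs

/-!
# S0076 log-spread squad, leaf PT (helper91): `sum_hits` and `potential`

`potential`: the total cost `Lseq` of the `T`-step paths ending in the host `B` is at most
`inj^T * Φ(|B|)`; proved through the potential
`Ψ_T = ∑_{U ⊆ B} (L_T(U) + C_T(U) Φ(|B| - |U|))`, `Ψ_{T+1} ≤ inj * Ψ_T`.
-/

set_option autoImplicit false

namespace Crest.Agent.Helper91.S0076

open Finset Crest.Agent.Helper68.S0076
open scoped Pointwise

variable {G : Type*} {X : Type*} [Group G] [Fintype G] [Fintype X] [DecidableEq X] [MulAction G X]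

/-! ## double counting -/

/-- double counting: points of `B \ U` against translates of `Z` inside `B` -/
theorem sum_hits_sdiff (Z B U : Finset X) :
    ∑ x ∈ B \ U, hits G Z B x
      = ∑ g ∈ Finset.univ.filter (fun g : G => g • Z ⊆ B), knew Z U g := by
  classical
  symm
  calc ∑ g ∈ Finset.univ.filter (fun g : G => g • Z ⊆ B), knew Z U g
      = ∑ g ∈ Finset.univ.filter (fun g : G => g • Z ⊆ B),
          ((B \ U).bipartiteAbove (fun (g : G) (x : X) => x ∈ g • Z) g).card := by
        refine Finset.sum_congr rfl (fun g hg => ?_)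
        rw [Finset.mem_filter] at hg
        unfold knew
        congr 1
        ext x
        simp only [Finset.mem_sdiff, Finset.mem_bipartiteAbove]
        constructor
        · rintro ⟨h1, h2⟩; exact ⟨⟨hg.2 h1, h2⟩, h1⟩
        · rintro ⟨⟨_, h2⟩, h1⟩; exact ⟨h1, h2⟩
    _ = ∑ x ∈ B \ U, ((Finset.univ.filter (fun g : G => g • Z ⊆ B)).bipartiteBelow
          (fun (g : G) (x : X) => x ∈ g • Z) x).card :=
        Finset.sum_card_bipartiteAbove_eq_sum_card_bipartiteBelow _
    _ = ∑ x ∈ B \ U, hits G Z B x := by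
        refine Finset.sum_congr rfl (fun x _ => ?_)
        unfold hits Finset.bipartiteBelow
        rw [Finset.filter_filter]

theorem sum_hits (Z B : Finset X) :
    ∑ x ∈ B, hits G Z B x = Z.card * inj G Z B := by
  have h := sum_hits_sdiff (G := G) Z B ∅
  rw [Finset.sdiff_empty] at h
  rw [h]
  have h2 : ∀ g ∈ Finset.univ.filter (fun g : G => g • Z ⊆ B), knew Z ∅ g = Z.card := by
    intro g _
    unfold knew
    rw [Finset.sdiff_empty, Finset.card_smul_finset]
  rw [Finset.sum_congr rfl h2, Finset.sum_const, smul_eq_mul, mul_comm]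
  rfl

/-! ## nonnegativity -/

theorem nu_mem' (ω : ℝ) (E m u : ℕ) (hω : 0 ≤ ω) (hωE : ω * (E : ℝ) ≤ (m : ℝ)) :
    0 ≤ nu ω E m u ∧ nu ω E m u ≤ 1 := by
  unfold nu
  split_ifs with h
  · exact ⟨zero_le_one, le_refl _⟩
  · have h1 : ((E - u : ℕ) : ℝ) ≤ (E : ℝ) := by exact_mod_cast Nat.sub_le E u
    have h2 : (0:ℝ) ≤ ((E - u : ℕ) : ℝ) := Nat.cast_nonneg _
    have h3 : ω * ((E - u : ℕ) : ℝ) ≤ (m : ℝ) :=
      le_trans (mul_le_mul_of_nonneg_left h1 hω) hωE
    have hm : (0:ℝ) ≤ (m:ℝ) := Nat.cast_nonneg _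
    refine ⟨div_nonneg (mul_nonneg hω h2) hm, ?_⟩
    rcases eq_or_lt_of_le hm with h0 | h0
    · rw [← h0]; simp
    · rw [div_le_one h0]; exact h3

theorem knew_le (Z U : Finset X) (g : G) : knew Z U g ≤ Z.card := by
  unfold knew
  calc ((g • Z) \ U).card ≤ (g • Z).card := Finset.card_le_card Finset.sdiff_subset
    _ = Z.card := Finset.card_smul_finset g Z

theorem log_inv_nonneg {x : ℝ} (h0 : 0 ≤ x) (h1 : x ≤ 1) : 0 ≤ Real.log (1 / x) := by
  rcases eq_or_lt_of_le h0 with h | h
  · rw [← h]; simp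
  · apply Real.log_nonneg
    rw [le_div_iff₀ h]; linarith

theorem cost_nonneg (ω : ℝ) (E : ℕ) (Z U : Finset X) (g : G) (hω : 0 ≤ ω)
    (hωE : ω * (E : ℝ) ≤ (Z.card : ℝ)) : 0 ≤ cost ω E Z U g := by
  obtain ⟨h0, h1⟩ := nu_mem' ω E Z.card U.card hω hωE
  unfold cost
  have hk : (knew Z U g : ℝ) ≤ (Z.card : ℝ) := by exact_mod_cast knew_le Z U g
  have hk0 : (0:ℝ) ≤ (knew Z U g : ℝ) := Nat.cast_nonneg _
  have ha := log_inv_nonneg h0 h1
  have hb := log_inv_nonneg (x := 1 - nu ω E Z.card U.card) (by linarith) (by linarith)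
  exact add_nonneg (mul_nonneg hk0 ha) (mul_nonneg (by linarith) hb)

theorem Aseq_nonneg' (Z : Finset X) (wt : Finset X → G → ℝ) (hwt : ∀ U g, 0 ≤ wt U g)
    (T : ℕ) (U : Finset X) : 0 ≤ Aseq Z wt T U := by
  induction T generalizing U with
  | zero => unfold Aseq; split_ifs <;> norm_num
  | succ T ih =>
    show 0 ≤ push Z wt (Aseq Z wt T) U
    unfold push
    refine Finset.sum_nonneg (fun V _ => Finset.sum_nonneg (fun g _ => ?_))
    split_ifs
    · exact mul_nonneg (ih V) (hwt V g)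
    · exact le_refl _

theorem Cseq_nonneg' (Z : Finset X) (T : ℕ) (U : Finset X) : 0 ≤ Cseq G Z T U :=
  Aseq_nonneg' Z _ (fun _ _ => zero_le_one) T U

theorem Lseq_nonneg (ω : ℝ) (E : ℕ) (Z : Finset X) (hω : 0 ≤ ω)
    (hωE : ω * (E : ℝ) ≤ (Z.card : ℝ)) (T : ℕ) (U : Finset X) :
    0 ≤ Lseq G ω E Z T U := by
  induction T generalizing U with
  | zero => exact le_refl _
  | succ T ih =>
    show 0 ≤ ∑ V : Finset X, ∑ g : G,
      if V ∪ g • Z = U then (Lseq G ω E Z T V + Cseq G Z T V * cost ω E Z V g) else 0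
    refine Finset.sum_nonneg (fun V _ => Finset.sum_nonneg (fun g _ => ?_))
    split_ifs
    · exact add_nonneg (ih V)
        (mul_nonneg (Cseq_nonneg' Z T V) (cost_nonneg ω E Z V g hω hωE))
    · exact le_refl _

/-! ## the potential function -/

theorem Phi_zero (ω : ℝ) (m : ℕ) : Phi ω m 0 = 0 := by unfold Phi; simp

theorem log_em_nonneg (ω : ℝ) (m : ℕ) (hω : 0 < ω) (r : ℝ) (hr : 0 < r)
    (hωr : ω * r ≤ (m : ℝ)) : 0 ≤ Real.log (Real.exp 1 * (m : ℝ) / (ω * r)) := by
  apply Real.log_nonneg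
  rw [le_div_iff₀ (by positivity)]
  have h1 : (1:ℝ) ≤ Real.exp 1 := by
    have := Real.add_one_le_exp (1:ℝ); linarith
  have hm : (0:ℝ) ≤ (m:ℝ) := Nat.cast_nonneg _
  nlinarith

theorem Phi_nonneg (ω : ℝ) (m : ℕ) (hω : 0 < ω) (r : ℝ) (hr : 0 ≤ r)
    (hωr : ω * r ≤ (m : ℝ)) : 0 ≤ Phi ω m r := by
  rcases eq_or_lt_of_le hr with h | h
  · rw [← h, Phi_zero]
  · unfold Phi
    have := log_em_nonneg ω m hω r h hωr
    exact mul_nonneg hr (by linarith)

/-- `Φ(r - k) ≤ Φ(r) - k log(e m / (ω r))` for `k ≤ r`, `0 < r`. -/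
theorem Phi_sub_le (ω : ℝ) (m : ℕ) (hω : 0 < ω) (hm : 0 < m) (r k : ℝ) (hr : 0 < r)
    (hk : k ≤ r) :
    Phi ω m (r - k) ≤ Phi ω m r - k * Real.log (Real.exp 1 * (m : ℝ) / (ω * r)) := by
  have hm' : (0:ℝ) < (m:ℝ) := by exact_mod_cast hm
  rcases eq_or_lt_of_le hk with h | h
  · rw [h, sub_self, Phi_zero]
    unfold Phi
    nlinarith
  · have hs : 0 < r - k := by linarith
    obtain ⟨s, hs_def⟩ : ∃ s, s = r - k := ⟨_, rfl⟩
    rw [← hs_def] at hs ⊢
    have hL : Real.log (Real.exp 1 * (m : ℝ) / (ω * s))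
        = Real.log (Real.exp 1 * (m : ℝ) / (ω * r)) + Real.log (r / s) := by
      rw [← Real.log_mul (by positivity) (by positivity)]
      congr 1
      field_simp
    have h2 : Real.log (r / s) ≤ r / s - 1 := Real.log_le_sub_one_of_pos (by positivity)
    have h3 : s * (r / s) = r := by field_simp
    have h4 : s * Real.log (r / s) ≤ r - s := by
      have := mul_le_mul_of_nonneg_left h2 hs.le
      rw [mul_sub, h3, mul_one] at this
      exact this
    have hk' : k = r - s := by rw [hs_def]; ring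
    unfold Phi
    rw [hL, hk']
    nlinarith

/-! ## the one-step inequality -/

theorem card_union_smul (Z U : Finset X) (g : G) :
    ((U ∪ g • Z).card : ℝ) = (U.card : ℝ) + (knew Z U g : ℝ) := by
  have h := Finset.card_sdiff_add_card (g • Z) U
  rw [Finset.union_comm] at h
  unfold knew
  rw [← h]
  push_cast
  ring

theorem card_add_knew_le (Z B U : Finset X) (hU : U ⊆ B) (g : G) (hg : g • Z ⊆ B) :
    (U.card : ℝ) + (knew Z U g : ℝ) ≤ (B.card : ℝ) := by
  rw [← card_union_smul]
  exact_mod_cast Finset.card_le_card (Finset.union_subset hU hg)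

theorem one_step (B Z : Finset X) (ω : ℝ) (hω : 0 < ω) (hZ : 0 < Z.card)
    (hωE : ω * (B.card : ℝ) ≤ (Z.card : ℝ))
    (hheavy : ∀ x ∈ B, ω * (inj G Z B : ℝ) ≤ (hits G Z B x : ℝ))
    (U : Finset X) (hU : U ⊆ B) :
    ∑ g ∈ Finset.univ.filter (fun g : G => g • Z ⊆ B),
        (cost ω B.card Z U g + Phi ω Z.card ((B.card : ℝ) - ((U ∪ g • Z).card : ℝ)))
      ≤ (inj G Z B : ℝ) * Phi ω Z.card ((B.card : ℝ) - (U.card : ℝ)) := by
  classical
  have hm' : (0:ℝ) < (Z.card : ℝ) := by exact_mod_cast hZ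
  have hu : U.card ≤ B.card := Finset.card_le_card hU
  have hI : (inj G Z B : ℝ)
      = ((Finset.univ.filter (fun g : G => g • Z ⊆ B)).card : ℝ) := rfl
  by_cases hu0 : U.card = 0
  · -- `U = ∅`: all costs vanish, `Φ` is monotone
    have hterm : ∀ g ∈ Finset.univ.filter (fun g : G => g • Z ⊆ B),
        cost ω B.card Z U g + Phi ω Z.card ((B.card : ℝ) - ((U ∪ g • Z).card : ℝ))
          ≤ Phi ω Z.card ((B.card : ℝ) - (U.card : ℝ)) := by
      intro g hg
      rw [Finset.mem_filter] at hg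
      have hc : cost ω B.card Z U g = 0 := by
        unfold cost nu
        rw [hu0]
        simp
      have hkE := card_add_knew_le Z B U hU g hg.2
      have hZB : Z.card ≤ B.card := by
        have := Finset.card_le_card hg.2
        rwa [Finset.card_smul_finset] at this
      have hE : (0:ℝ) < (B.card : ℝ) := by exact_mod_cast lt_of_lt_of_le hZ hZB
      rw [hc, card_union_smul, hu0]
      rw [hu0] at hkE
      simp only [Nat.cast_zero, zero_add, sub_zero] at hkE ⊢
      have h1 := Phi_sub_le ω Z.card hω hZ (B.card : ℝ) (knew Z U g : ℝ) hE hkE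
      have h2 := log_em_nonneg ω Z.card hω (B.card : ℝ) hE hωE
      have h3 : (0:ℝ) ≤ (knew Z U g : ℝ) := Nat.cast_nonneg _
      nlinarith [mul_nonneg h3 h2]
    calc _ ≤ ∑ _g ∈ Finset.univ.filter (fun g : G => g • Z ⊆ B),
            Phi ω Z.card ((B.card : ℝ) - (U.card : ℝ)) := Finset.sum_le_sum hterm
      _ = _ := by rw [Finset.sum_const, nsmul_eq_mul, hI]
  · by_cases huE : U.card = B.card
    · -- `U = B`: everything vanishes
      have hterm : ∀ g ∈ Finset.univ.filter (fun g : G => g • Z ⊆ B),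
          cost ω B.card Z U g + Phi ω Z.card ((B.card : ℝ) - ((U ∪ g • Z).card : ℝ)) = 0 := by
        intro g hg
        rw [Finset.mem_filter] at hg
        have hkE := card_add_knew_le Z B U hU g hg.2
        have hk0 : knew Z U g = 0 := by
          have h3 : (0:ℝ) ≤ (knew Z U g : ℝ) := Nat.cast_nonneg _
          have h4 : (knew Z U g : ℝ) ≤ 0 := by
            rw [huE] at hkE; linarith
          exact_mod_cast le_antisymm h4 h3
        have hc : cost ω B.card Z U g = 0 := by
          unfold cost nu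
          rw [hk0, if_neg hu0, huE]
          simp
        rw [hc, card_union_smul, hk0, huE]
        simp [Phi_zero]
      rw [Finset.sum_congr rfl hterm, huE, sub_self, Phi_zero]
      simp
    · -- the generic case `0 < |U| < |B|`
      have hult : U.card < B.card := lt_of_le_of_ne hu huE
      have hupos : 0 < U.card := Nat.pos_of_ne_zero hu0
      obtain ⟨r, hr_def⟩ : ∃ r : ℝ, r = (B.card : ℝ) - (U.card : ℝ) := ⟨_, rfl⟩
      have hr : 0 < r := by
        rw [hr_def]; have : (U.card : ℝ) < (B.card : ℝ) := by exact_mod_cast hult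
        linarith
      have hrE : r < (B.card : ℝ) := by
        rw [hr_def]; have : (0:ℝ) < (U.card : ℝ) := by exact_mod_cast hupos
        linarith
      have hnu : nu ω B.card Z.card U.card = ω * r / (Z.card : ℝ) := by
        unfold nu
        rw [if_neg hu0, Nat.cast_sub hu, hr_def]
      obtain ⟨ν, hν_def⟩ : ∃ ν : ℝ, ν = ω * r / (Z.card : ℝ) := ⟨_, rfl⟩
      have hν0 : 0 < ν := by rw [hν_def]; positivity
      have hν1 : ν < 1 := by
        rw [hν_def, div_lt_one hm']
        nlinarith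
      have hmν : (Z.card : ℝ) * ν = ω * r := by rw [hν_def]; field_simp
      obtain ⟨a, ha_def⟩ : ∃ a : ℝ, a = Real.log (1 / ν) := ⟨_, rfl⟩
      obtain ⟨b, hb_def⟩ : ∃ b : ℝ, b = Real.log (1 / (1 - ν)) := ⟨_, rfl⟩
      have h1ν : 0 < 1 - ν := by linarith
      have hb0 : 0 ≤ b := by
        rw [hb_def]; exact log_inv_nonneg h1ν.le (by linarith)
      have hb1 : (1 - ν) * b ≤ ν := by
        have h := Real.log_le_sub_one_of_pos (x := 1 / (1 - ν)) (by positivity)
        rw [← hb_def] at h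
        have h2 := mul_le_mul_of_nonneg_left h h1ν.le
        have h3 : (1 - ν) * (1 / (1 - ν) - 1) = ν := by field_simp; ring
        rw [h3] at h2
        exact h2
      have hL : Real.log (Real.exp 1 * (Z.card : ℝ) / (ω * r)) = 1 + a := by
        have h : Real.exp 1 * (Z.card : ℝ) / (ω * r) = Real.exp 1 * (1 / ν) := by
          rw [hν_def]; field_simp
        rw [h, Real.log_mul (Real.exp_pos 1).ne' (by positivity), Real.log_exp, ha_def]
      -- termwise bound
      have hterm : ∀ g ∈ Finset.univ.filter (fun g : G => g • Z ⊆ B),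
          cost ω B.card Z U g + Phi ω Z.card ((B.card : ℝ) - ((U ∪ g • Z).card : ℝ))
            ≤ (knew Z U g : ℝ) * a + ((Z.card : ℝ) - (knew Z U g : ℝ)) * b
              + (Phi ω Z.card r - (knew Z U g : ℝ) * (1 + a)) := by
        intro g hg
        rw [Finset.mem_filter] at hg
        have hkE := card_add_knew_le Z B U hU g hg.2
        have hc : cost ω B.card Z U g
            = (knew Z U g : ℝ) * a + ((Z.card : ℝ) - (knew Z U g : ℝ)) * b := by
          unfold cost
          rw [hnu, ← hν_def, ← ha_def, ← hb_def]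
        have hk : (knew Z U g : ℝ) ≤ r := by rw [hr_def]; linarith
        have h1 := Phi_sub_le ω Z.card hω hZ r (knew Z U g : ℝ) hr hk
        rw [hL] at h1
        have h2 : (B.card : ℝ) - ((U ∪ g • Z).card : ℝ) = r - (knew Z U g : ℝ) := by
          rw [card_union_smul, hr_def]; ring
        rw [hc, h2]
        linarith
      -- the total number of new points
      obtain ⟨K1, hK1_def⟩ : ∃ K1 : ℝ, K1 = ∑ g ∈ Finset.univ.filter (fun g : G => g • Z ⊆ B),
          (knew Z U g : ℝ) := ⟨_, rfl⟩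
      have hK1 : ω * (inj G Z B : ℝ) * r ≤ K1 := by
        have h1 : K1 = ∑ x ∈ B \ U, (hits G Z B x : ℝ) := by
          rw [hK1_def, ← Nat.cast_sum, ← Nat.cast_sum, sum_hits_sdiff]
        have h2 : ∑ _x ∈ B \ U, ω * (inj G Z B : ℝ) ≤ ∑ x ∈ B \ U, (hits G Z B x : ℝ) :=
          Finset.sum_le_sum (fun x hx => hheavy x (Finset.mem_sdiff.mp hx).1)
        rw [Finset.sum_const, nsmul_eq_mul, Finset.card_sdiff_of_subset hU, Nat.cast_sub hu,
          ← hr_def] at h2
        rw [h1]
        linarith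
      have hI0 : (0:ℝ) ≤ (inj G Z B : ℝ) := Nat.cast_nonneg _
      have hsum : ∑ g ∈ Finset.univ.filter (fun g : G => g • Z ⊆ B),
          ((knew Z U g : ℝ) * a + ((Z.card : ℝ) - (knew Z U g : ℝ)) * b
              + (Phi ω Z.card r - (knew Z U g : ℝ) * (1 + a)))
          = (inj G Z B : ℝ) * Phi ω Z.card r
            + (((Z.card : ℝ) * (inj G Z B : ℝ) - K1) * b - K1) := by
        have h : ∀ g ∈ Finset.univ.filter (fun g : G => g • Z ⊆ B),
            ((knew Z U g : ℝ) * a + ((Z.card : ℝ) - (knew Z U g : ℝ)) * b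
              + (Phi ω Z.card r - (knew Z U g : ℝ) * (1 + a)))
            = ((Z.card : ℝ) * b + Phi ω Z.card r) + (knew Z U g : ℝ) * (-b - 1) := by
          intro g _; ring
        rw [Finset.sum_congr rfl h, Finset.sum_add_distrib, ← Finset.sum_mul, ← hK1_def,
          Finset.sum_const, nsmul_eq_mul, ← hI]
        ring
      have hkey : ((Z.card : ℝ) * (inj G Z B : ℝ) - K1) * b ≤ K1 := by
        have h1 : (Z.card : ℝ) * (inj G Z B : ℝ) - K1
            ≤ (Z.card : ℝ) * (inj G Z B : ℝ) * (1 - ν) := by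
          have : (Z.card : ℝ) * (inj G Z B : ℝ) * ν = ω * (inj G Z B : ℝ) * r := by
            rw [mul_right_comm, hmν]; ring
          linarith
        have h2 : ((Z.card : ℝ) * (inj G Z B : ℝ) - K1) * b
            ≤ (Z.card : ℝ) * (inj G Z B : ℝ) * (1 - ν) * b :=
          mul_le_mul_of_nonneg_right h1 hb0
        have h3 : (Z.card : ℝ) * (inj G Z B : ℝ) * (1 - ν) * b
            ≤ (Z.card : ℝ) * (inj G Z B : ℝ) * ν := by
          have := mul_le_mul_of_nonneg_left hb1 (mul_nonneg hm'.le hI0)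
          linarith
        have h4 : (Z.card : ℝ) * (inj G Z B : ℝ) * ν = ω * (inj G Z B : ℝ) * r := by
          rw [mul_right_comm, hmν]; ring
        linarith
      calc _ ≤ _ := Finset.sum_le_sum hterm
        _ = _ := hsum
        _ ≤ (inj G Z B : ℝ) * Phi ω Z.card r := by linarith
        _ = _ := by rw [hr_def]

/-! ## the recursion for the potential sum -/

theorem Cseq_succ (Z : Finset X) (T : ℕ) (U' : Finset X) :
    Cseq G Z (T + 1) U'
      = ∑ U : Finset X, ∑ g : G, if U ∪ g • Z = U' then Cseq G Z T U else 0 := by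
  show push Z (fun (_ : Finset X) (_ : G) => (1:ℝ))
    (Aseq Z (fun (_ : Finset X) (_ : G) => (1 : ℝ)) T) U' = _
  unfold push
  simp only [mul_one]
  rfl

theorem sum_push_aux (Z : Finset X) (s : Finset (Finset X)) (F : Finset X → G → ℝ) :
    ∑ U' ∈ s, ∑ U : Finset X, ∑ g : G, (if U ∪ g • Z = U' then F U g else 0)
      = ∑ U : Finset X, ∑ g : G, if U ∪ g • Z ∈ s then F U g else 0 := by
  rw [Finset.sum_comm]
  refine Finset.sum_congr rfl (fun U _ => ?_)
  rw [Finset.sum_comm]
  refine Finset.sum_congr rfl (fun g _ => ?_)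
  exact Finset.sum_ite_eq s (U ∪ g • Z) (fun _ => F U g)

theorem sum_powerset_push (B Z : Finset X) (F : Finset X → G → ℝ) :
    ∑ U' ∈ B.powerset, ∑ U : Finset X, ∑ g : G, (if U ∪ g • Z = U' then F U g else 0)
      = ∑ U ∈ B.powerset, ∑ g ∈ Finset.univ.filter (fun g : G => g • Z ⊆ B), F U g := by
  classical
  rw [sum_push_aux]
  symm
  have h1 : ∀ U ∈ B.powerset,
      ∑ g ∈ Finset.univ.filter (fun g : G => g • Z ⊆ B), F U g
        = ∑ g : G, if U ∪ g • Z ∈ B.powerset then F U g else 0 := by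
    intro U hU
    rw [Finset.mem_powerset] at hU
    rw [Finset.sum_filter]
    refine Finset.sum_congr rfl (fun g _ => ?_)
    refine if_congr ?_ rfl rfl
    rw [Finset.mem_powerset, Finset.union_subset_iff]
    exact ⟨fun h => ⟨hU, h⟩, fun h => h.2⟩
  rw [Finset.sum_congr rfl h1]
  refine Finset.sum_subset (Finset.subset_univ _) (fun U _ hU => ?_)
  refine Finset.sum_eq_zero (fun g _ => ?_)
  rw [if_neg]
  intro h
  rw [Finset.mem_powerset] at h hU
  exact hU (Finset.union_subset_iff.mp h).1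

theorem Psi_succ (B Z : Finset X) (ω : ℝ) (T : ℕ) :
    ∑ U' ∈ B.powerset, (Lseq G ω B.card Z (T + 1) U'
        + Cseq G Z (T + 1) U' * Phi ω Z.card ((B.card : ℝ) - (U'.card : ℝ)))
      = ∑ U ∈ B.powerset, ∑ g ∈ Finset.univ.filter (fun g : G => g • Z ⊆ B),
          (Lseq G ω B.card Z T U + Cseq G Z T U
            * (cost ω B.card Z U g + Phi ω Z.card ((B.card : ℝ) - ((U ∪ g • Z).card : ℝ)))) := by
  classical
  have h1 : ∀ U' ∈ B.powerset, Lseq G ω B.card Z (T + 1) U'
        + Cseq G Z (T + 1) U' * Phi ω Z.card ((B.card : ℝ) - (U'.card : ℝ))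
      = ∑ U : Finset X, ∑ g : G, if U ∪ g • Z = U' then
          (Lseq G ω B.card Z T U + Cseq G Z T U
            * (cost ω B.card Z U g + Phi ω Z.card ((B.card : ℝ) - ((U ∪ g • Z).card : ℝ))))
          else 0 := by
    intro U' _
    rw [Cseq_succ]
    show (∑ U : Finset X, ∑ g : G, if U ∪ g • Z = U' then
        (Lseq G ω B.card Z T U + Cseq G Z T U * cost ω B.card Z U g) else 0) + _ = _
    rw [Finset.sum_mul, ← Finset.sum_add_distrib]
    refine Finset.sum_congr rfl (fun U _ => ?_)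
    rw [Finset.sum_mul, ← Finset.sum_add_distrib]
    refine Finset.sum_congr rfl (fun g _ => ?_)
    split_ifs with h
    · rw [h]; ring
    · simp
  rw [Finset.sum_congr rfl h1]
  exact sum_powerset_push B Z _

/-! ## the leaf -/

theorem potential (B Z : Finset X) (ω : ℝ) (hω : 0 < ω) (hZ : 0 < Z.card)
    (hωE : ω * (B.card : ℝ) ≤ (Z.card : ℝ)) (hinj : 0 < inj G Z B)
    (hheavy : ∀ x ∈ B, ω * (inj G Z B : ℝ) ≤ (hits G Z B x : ℝ)) (T : ℕ) :
    Lseq G ω B.card Z T B ≤ (inj G Z B : ℝ) ^ T * Phi ω Z.card (B.card : ℝ) := by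
  classical
  have hPsi : ∀ T : ℕ, ∑ U ∈ B.powerset, (Lseq G ω B.card Z T U
        + Cseq G Z T U * Phi ω Z.card ((B.card : ℝ) - (U.card : ℝ)))
      ≤ (inj G Z B : ℝ) ^ T * Phi ω Z.card (B.card : ℝ) := by
    intro T
    induction T with
    | zero =>
      have h0 : ∀ U ∈ B.powerset, (Lseq G ω B.card Z 0 U
          + Cseq G Z 0 U * Phi ω Z.card ((B.card : ℝ) - (U.card : ℝ)))
          = if U = ∅ then Phi ω Z.card (B.card : ℝ) else 0 := by
        intro U _
        show (0:ℝ) + (if U = ∅ then (1:ℝ) else 0) * _ = _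
        split_ifs with h
        · subst h; simp
        · simp
      rw [Finset.sum_congr rfl h0, Finset.sum_ite_eq' B.powerset ∅ (fun _ => Phi ω Z.card (B.card : ℝ))]
      simp
    | succ T ih =>
      rw [Psi_succ]
      calc _ ≤ ∑ U ∈ B.powerset, (inj G Z B : ℝ) * (Lseq G ω B.card Z T U
              + Cseq G Z T U * Phi ω Z.card ((B.card : ℝ) - (U.card : ℝ))) := by
            refine Finset.sum_le_sum (fun U hU => ?_)
            rw [Finset.mem_powerset] at hU
            have h1 := one_step B Z ω hω hZ hωE hheavy U hU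
            have hC := Cseq_nonneg' (G := G) Z T U
            rw [Finset.sum_add_distrib, Finset.sum_const, ← Finset.mul_sum, nsmul_eq_mul]
            have h2 := mul_le_mul_of_nonneg_left h1 hC
            have hI : (inj G Z B : ℝ)
                = ((Finset.univ.filter (fun g : G => g • Z ⊆ B)).card : ℝ) := rfl
            rw [← hI]
            linarith
        _ = (inj G Z B : ℝ) * ∑ U ∈ B.powerset, (Lseq G ω B.card Z T U
              + Cseq G Z T U * Phi ω Z.card ((B.card : ℝ) - (U.card : ℝ))) := by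
            rw [Finset.mul_sum]
        _ ≤ (inj G Z B : ℝ) * ((inj G Z B : ℝ) ^ T * Phi ω Z.card (B.card : ℝ)) :=
            mul_le_mul_of_nonneg_left ih (Nat.cast_nonneg _)
        _ = _ := by ring
  refine le_trans ?_ (hPsi T)
  have hB : B ∈ B.powerset := Finset.mem_powerset.mpr (Finset.Subset.refl B)
  have hnn : ∀ U ∈ B.powerset, 0 ≤ Lseq G ω B.card Z T U
      + Cseq G Z T U * Phi ω Z.card ((B.card : ℝ) - (U.card : ℝ)) := by
    intro U hU
    rw [Finset.mem_powerset] at hU
    have hu : (U.card : ℝ) ≤ (B.card : ℝ) := by exact_mod_cast Finset.card_le_card hU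
    have hu0 : (0:ℝ) ≤ (U.card : ℝ) := Nat.cast_nonneg _
    refine add_nonneg (Lseq_nonneg ω B.card Z hω.le hωE T U)
      (mul_nonneg (Cseq_nonneg' Z T U) (Phi_nonneg ω Z.card hω _ (by linarith) ?_))
    nlinarith
  calc Lseq G ω B.card Z T B
      = Lseq G ω B.card Z T B
          + Cseq G Z T B * Phi ω Z.card ((B.card : ℝ) - (B.card : ℝ)) := by
        rw [sub_self, Phi_zero]; simp
    _ ≤ _ := Finset.single_le_sum hnn hB

end Crest.Agent.Helper91.S0076
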